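import Mathlib
import Vale.Agent.P328.Defs
import Vale.Agent.P328.Main

namespace Vale.Agent.Results.P328.Sampler

open Vale.Agent.P328

/-- An almost uniform sampler for contingency tables with arbitrary margins in binary.  One
polynomial-time Turing machine with finite alphabets reads `m`, `n`, `⌈1 / ε⌉`, the margins and
`T` fair coin tosses.  As soon as `T ≥ k (L + log (1 / ε)) ^ k` it always outputs a table with
the given margins, within `k (L + log (1 / ε) + T) ^ k` steps, and the law of the output is within
total variation distance `ε` of the uniform law. -/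
theorem result :
    ∃ (F : List ℕ → List ℕ) (M : Turing.TM2ComputableInPolyTime code code F) (k : ℕ),
      (∀ s, Finite (M.tm.Γ s)) ∧
      ∀ (m n : ℕ) (r : Fin m → ℕ) (c : Fin n → ℕ), 1 ≤ m → 1 ≤ n → ∑ i, r i = ∑ j, c j →
        ∀ ε : ℝ, 0 < ε → ε < 1 →
          ∀ T : ℕ, (k : ℝ) * (inputLength r c + Real.log (1 / ε)) ^ k ≤ T →
            (∀ ω : Fin T → Bool, (∃ X ∈ tables r c, F (input r c ε ω) = entries X) ∧
              ((M.time.eval (code (input r c ε ω)).length : ℕ) : ℝ) ≤
                k * (inputLength r c + Real.log (1 / ε) + T) ^ k) ∧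
            1 / 2 * ∑ X ∈ tables r c,
              |((Finset.univ.filter fun ω : Fin T → Bool =>
                  F (input r c ε ω) = entries X).card : ℝ) / 2 ^ T -
                1 / ((tables r c).card : ℝ)| ≤ ε :=
  main

end Vale.Agent.Results.P328.Sampler
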